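import Vale.Agent.Lib.P038.Sat.Shapes.S6_7t
noncomputable section
namespace Vale.Agent.Lib.P038.Sat.I.M1_7
open Vale.Agent.Lib.P038.Sat
def W : Nat := 81
def M : Nat := 2417851639229258349412351
def GT : Nat := 729473408164500004160488638956053960620482705439721534996593491332772260212721446442275202675730958356857031316315214888539027079352431125751456933780733435020218141413642797583099897593183756151821428497558907831925298970264859825654729181735757296333772741037994855605702158218779776482168050822538717961354231123526166903766663365892549572557878739967129592994400497774759998033847633639356448218899231277065164226747227325535693483418264776298255572711166600534052810594561479328114251942170654418732344308988314462007487571729244372005918796029633725074324861881541347912982529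
def h0 : T := (T.l (nat_lit 0))
def H : T := h0
theorem hlast : getB H 0 = 0 := by decide +kernel
end Vale.Agent.Lib.P038.Sat.I.M1_7
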